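import Vale.Agent.P024U.Red

namespace Vale.Agent.Results.P024.Uchida
open Vale.Agent.P024U

theorem result (F1 F2 E1 E2 : Type*) [Field F1] [NumberField F1] [Field F2] [NumberField F2]
    [Field E1] [Field E2] [Algebra F1 E1] [Algebra F2 E2] [IsGalois F1 E1] [IsGalois F2 E2]
    (_h1 : SolvClosed E1) (h2 : SolvClosed E2) (α : (E1 ≃ₐ[F1] E1) →* (E2 ≃ₐ[F2] E2))
    (hc : Continuous α) (ho : IsOpen (Set.range α)) :
    ∃ j : E2 →+* E1, ∀ (g : E1 ≃ₐ[F1] E1) (x : E2), g (j x) = j (α g x) :=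
  uchida F1 F2 E1 E2 h2 α hc ho

end Vale.Agent.Results.P024.Uchida
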